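import Vale.Agent.P254.Fin

namespace Vale.Agent.Results.P254.FreeSums

open Vale.Agent.P254

theorem result :
    (∀ (n : ℕ), 1 ≤ n → ∀ f : Fin (n + 2) → Fin n → ℝ,
      (interior (convexHull ℝ (Set.range f))).Nonempty → Strong (convexHull ℝ (Set.range f))) ∧
    (∀ (ι κ : Type) [Fintype ι] [Fintype κ] [DecidableEq ι] [DecidableEq κ] [Nonempty ι]
      [Nonempty κ] (K : Set (ι → ℝ)) (M : Set (κ → ℝ)), Body K → Body M → Strong K → Strong M →
        (Body (prodB K M) ∧ Strong (prodB K M)) ∧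
        (0 ∈ K → 0 ∈ M → Body (freeSum K M) ∧ Strong (freeSum K M)) ∧
        ∀ T : (ι → ℝ) ≃ᵃ[ℝ] (ι → ℝ), Body (T '' K) ∧ Strong (T '' K)) ∧
    ∀ (n : ℕ) (K : Set (Fin n → ℝ)), Gen K → Body K ∧ Strong K :=
  ⟨fun _ hn f hi => strong_few hn f hi,
    fun _ _ _ _ _ _ _ _ _ _ hK hM sK sM =>
      ⟨⟨prod_body hK hM, strong_prod hK hM sK sM⟩,
        fun h0 h0' => ⟨fs_body hK hM h0 h0', strong_fs hK hM h0 h0' sK sM⟩,
        fun T => strong_equiv T hK sK⟩,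
    fun _ _ h => (strong_gen h inferInstance).2⟩

end Vale.Agent.Results.P254.FreeSums
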